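import Vale.Agent.P154.KS
import Vale.Agent.P154.Cert

namespace Vale.Agent.Results.P154.Ferro

open Vale.Agent.P154

lemma nonrecon {q : ℕ} (hq : q = 3 ∨ q = 4) {p : ℕ → ℝ} (hp : ∀ k, 0 ≤ p k) (hs : HasSum p 1)
    {d : ℝ} (hd : HasSum (fun k : ℕ => p k * k) d) {k0 : ℕ} (hk : 2 ≤ k0) (hpk : 0 < p k0)
    {lam : ℝ} (h0 : 0 ≤ lam) (h1 : lam ≤ 1) (hc : d * lam ^ 2 ≤ 1) : NonRecon q p lam := by
  rcases hq with rfl | rfl
  · exact cert3.nonrecon hp hs hd hk hpk h0 h1 hc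
  · exact cert4.nonrecon hp hs hd hk hpk h0 h1 hc

lemma both {q : ℕ} (hq : q = 3 ∨ q = 4) {p : ℕ → ℝ} (hp : ∀ k, 0 ≤ p k) (hs : HasSum p 1)
    {d d2 : ℝ} (hd : HasSum (fun k : ℕ => p k * k) d)
    (hd2 : HasSum (fun k : ℕ => p k * (k * (k - 1))) d2) {k0 : ℕ} (hk : 2 ≤ k0) (hpk : 0 < p k0)
    {lam : ℝ} (h0 : 0 ≤ lam) (h1 : lam ≤ 1) :
    (Recon q p lam ↔ 1 < d * lam ^ 2) ∧ (NonRecon q p lam ↔ d * lam ^ 2 ≤ 1) := by
  have hq2 : 2 ≤ q := by omega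
  haveI : NeZero q := ⟨by omega⟩
  have A := fun h => recon_of_ks hq2 hp hs hd hd2 (adm_of_nonneg h0 h1) h
  have B := fun h => nonrecon hq hp hs hd hk hpk h0 h1 h
  exact ⟨⟨fun h => not_le.1 fun h' => h.not_nonrecon (B h'), A⟩,
    ⟨fun h => not_lt.1 fun h' => (A h').not_nonrecon h, B⟩⟩

theorem result (q : ℕ) (hq : q = 3 ∨ q = 4) (lam : ℝ) (h0 : 0 ≤ lam) (h1 : lam ≤ 1) :
    (∀ d : ℕ, 2 ≤ d →
      (Recon q (dary d) lam ↔ 1 < (d : ℝ) * lam ^ 2) ∧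
      (NonRecon q (dary d) lam ↔ (d : ℝ) * lam ^ 2 ≤ 1)) ∧
    (∀ d : ℝ, 0 < d →
      (Recon q (poisson d) lam ↔ 1 < d * lam ^ 2) ∧
      (NonRecon q (poisson d) lam ↔ d * lam ^ 2 ≤ 1)) := by
  refine ⟨fun d hd => ?_, fun d hd => ?_⟩
  · exact both hq (dary_nonneg d) (by simpa using dary_hasSum d fun _ => 1)
      (dary_hasSum d fun k => k) (dary_hasSum d fun k => k * (k - 1)) hd (by simp [dary]) h0 h1
  · have hp : ∀ k, 0 < poisson d k := fun k => by unfold poisson; positivity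
    exact both hq (fun k => (hp k).le) (poisson_hasSum d) (poisson_mean d) (poisson_second d)
      le_rfl (hp 2) h0 h1

end Vale.Agent.Results.P154.Ferro
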