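import Vale.Agent.P154.Cert
import Vale.Agent.P154.AF.Main

namespace Vale.Agent.Results.P154.Full

open Vale.Agent.P154

lemma both {q : ℕ} (hq : 2 ≤ q) {p : ℕ → ℝ} (hp : ∀ k, 0 ≤ p k) (hs : HasSum p 1)
    {d d2 : ℝ} (hd : HasSum (fun k : ℕ => p k * k) d)
    (hd2 : HasSum (fun k : ℕ => p k * (k * (k - 1))) d2) {lam : ℝ} (ha : Adm q lam)
    (B : d * lam ^ 2 ≤ 1 → NonRecon q p lam) :
    (Recon q p lam ↔ 1 < d * lam ^ 2) ∧ (NonRecon q p lam ↔ d * lam ^ 2 ≤ 1) := by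
  haveI : NeZero q := ⟨by omega⟩
  have A := fun h => recon_of_ks hq hp hs hd hd2 ha h
  exact ⟨⟨fun h => not_le.1 fun h' => h.not_nonrecon (B h'), A⟩,
    ⟨fun h => not_lt.1 fun h' => (A h').not_nonrecon h, B⟩⟩

theorem result (q : ℕ) (lam : ℝ) (hq : (q = 3 ∧ -1 / 2 ≤ lam) ∨ (q = 4 ∧ 0 ≤ lam))
    (h1 : lam ≤ 1) :
    (∀ d : ℕ, 2 ≤ d →
      (Recon q (dary d) lam ↔ 1 < (d : ℝ) * lam ^ 2) ∧
      (NonRecon q (dary d) lam ↔ (d : ℝ) * lam ^ 2 ≤ 1)) ∧
    (∀ d : ℝ, 0 < d →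
      (Recon q (poisson d) lam ↔ 1 < d * lam ^ 2) ∧
      (NonRecon q (poisson d) lam ↔ d * lam ^ 2 ≤ 1)) := by
  have ha : Adm q lam := ⟨h1, by
    rcases hq with ⟨rfl, h⟩ | ⟨rfl, h⟩ <;> push_cast <;> linarith⟩
  refine ⟨fun d hd => ?_, fun d hd => ?_⟩
  · have s := AF.dary_sum d
    have m := dary_hasSum d fun k => k
    have k : 0 < dary d d := by simp [dary]
    refine both (by omega) (dary_nonneg d) s m (dary_hasSum d fun k => k * (k - 1)) ha fun h => ?_
    rcases hq with ⟨rfl, h0⟩ | ⟨rfl, h0⟩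
    · rcases le_total 0 lam with c | c
      · exact cert3.nonrecon (dary_nonneg d) s m hd k c h1 h
      · simpa using AF.af_dary d (l := -lam) (by linarith) (by linarith) (by simpa using h)
    · exact cert4.nonrecon (dary_nonneg d) s m hd k h0 h1 h
  · have hp : ∀ k, 0 < poisson d k := fun k => by unfold poisson; positivity
    have n := fun k => (hp k).le
    refine both (by omega) n (poisson_hasSum d) (poisson_mean d) (poisson_second d) ha fun h => ?_
    rcases hq with ⟨rfl, h0⟩ | ⟨rfl, h0⟩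
    · rcases le_total 0 lam with c | c
      · exact cert3.nonrecon n (poisson_hasSum d) (poisson_mean d) le_rfl (hp 2) c h1 h
      · simpa using AF.af_poisson hd.le (l := -lam) (by linarith) (by linarith) (by simpa using h)
    · exact cert4.nonrecon n (poisson_hasSum d) (poisson_mean d) le_rfl (hp 2) h0 h1 h

end Vale.Agent.Results.P154.Full
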